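import Vale.Agent.P327.Main

/-!
Conclusion: a continuous additive bijection of Cantor space preserving Turing reducibility in both
directions moves no set out of its Turing degree.
-/

namespace Vale.Agent.P327

open Nat Part Encodable

/-- Parity along a computable sequence of lists is computable from the oracle. -/
theorem par_recursiveIn {R : ℕ → List ℕ} (hR : Computable R) (A : ℕ → Bool) :
    Nat.RecursiveIn {chi A} (fun n => Part.some (par A (R n)).toNat) := by
  let getf : ℕ → ℕ := fun z =>
    ((Denumerable.ofNat (List ℕ) (Nat.unpair z).1)[(Nat.unpair (Nat.unpair z).2).1]?).getD 0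
  let acc : ℕ → ℕ := fun z => (Nat.unpair (Nat.unpair z).2).2
  let bxor : ℕ → ℕ := fun w => if (Nat.unpair w).1 = (Nat.unpair w).2 then 0 else 1
  have hgetf : Computable getf := by
    refine Computable.option_getD (Computable.list_getElem?.comp ?_ ?_) (Computable.const 0)
    · exact (Computable.ofNat (List ℕ)).comp (Computable.fst.comp Computable.unpair)
    · exact Computable.fst.comp (Computable.unpair.comp (Computable.snd.comp Computable.unpair))
  have hacc : Computable acc :=
    Computable.snd.comp (Computable.unpair.comp (Computable.snd.comp Computable.unpair))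
  have hbxor : Computable bxor :=
    (Primrec.ite (Primrec.eq.comp (Primrec.fst.comp Primrec.unpair) (Primrec.snd.comp Primrec.unpair))
      (Primrec.const 0) (Primrec.const 1)).to_comp
  have rec_of {f : ℕ → ℕ} (hf : Computable f) :
      Nat.RecursiveIn {chi A} (fun n => Part.some (f n)) :=
    Nat.Partrec.recursiveIn (Partrec.nat_iff.1 hf.partrec)
  let oa : ℕ →. ℕ := fun z => Part.some (getf z) >>= chi A
  have hoa : Nat.RecursiveIn {chi A} oa :=
    Nat.RecursiveIn.comp (Nat.RecursiveIn.oracle _ rfl) (rec_of hgetf)
  let st : ℕ →. ℕ := fun z => Nat.pair <$> Part.some (acc z) <*> oa z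
  have hst : Nat.RecursiveIn {chi A} st := Nat.RecursiveIn.pair (rec_of hacc) hoa
  let step : ℕ →. ℕ := fun z => st z >>= fun w => Part.some (bxor w)
  have hstep : Nat.RecursiveIn {chi A} step := Nat.RecursiveIn.comp (rec_of hbxor) hst
  have hstepv : ∀ z, step z = Part.some (bxor (Nat.pair (acc z) (A (getf z)).toNat)) := by
    intro z
    refine Part.eq_some_iff.2 ?_
    refine Part.mem_bind_iff.2 ⟨Nat.pair (acc z) (A (getf z)).toNat, ?_, Part.mem_some _⟩
    refine mem_pair_iff.2 ⟨acc z, Part.mem_some _, (A (getf z)).toNat, ?_, rfl⟩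
    exact Part.mem_bind_iff.2 ⟨getf z, Part.mem_some _, Part.mem_some _⟩
  have hprec := Nat.RecursiveIn.prec (O := {chi A}) (f := fun _ => 0) (h := step)
    Nat.RecursiveIn.zero hstep
  have hval : ∀ (l : List ℕ) (k : ℕ), k ≤ l.length →
      (par A (l.take k)).toNat ∈ (Nat.rec (motive := fun _ => Part ℕ) (0 : Part ℕ)
        (fun y IH => IH >>= fun i => step (Nat.pair (encode l) (Nat.pair y i))) k : Part ℕ) := by
    intro l k
    induction k with
    | zero =>
        intro _
        simp only [List.take_zero, par, Bool.toNat_false]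
        exact Part.mem_some 0
    | succ k ih =>
        intro hk
        have hk' : k < l.length := by omega
        refine mem_bind'.2 ⟨_, ih (by omega), ?_⟩
        rw [hstepv]
        refine Part.eq_some_iff.1 ?_
        congr 1
        have hg : getf (Nat.pair (encode l) (Nat.pair k (par A (l.take k)).toNat)) = l[k] := by
          simp [getf, hk']
        have ha : acc (Nat.pair (encode l) (Nat.pair k (par A (l.take k)).toNat)) =
            (par A (l.take k)).toNat := by simp [acc]
        rw [hg, ha, List.take_add_one, par_append]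
        simp only [hk', List.getElem?_eq_getElem, Option.toList_some, par, Bool.xor_false]
        simp only [bxor, Nat.unpair_pair]
        cases par A (l.take k) <;> cases A l[k] <;> simp
  have hf0 : Computable (fun n => Nat.pair (encode (R n)) (R n).length) :=
    Primrec₂.natPair.to_comp.comp (Computable.encode.comp hR) (Computable.list_length.comp hR)
  have hall := Nat.RecursiveIn.comp hprec (rec_of hf0)
  refine Nat.RecursiveIn.of_eq_tot (g := fun n => (par A (R n)).toNat) hall ?_ |>.of_eq (fun _ => rfl)
  intro n
  refine Part.mem_bind_iff.2 ⟨_, Part.mem_some _, ?_⟩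
  have := hval (R n) (R n).length le_rfl
  simp only [List.take_length] at this
  simpa [Nat.unpair_pair] using this

/-- The shift of a set is reducible to the set. -/
theorem shift_tle (X : ℕ → Bool) : TLe (fun n => X (n + 1)) X := by
  have h := Nat.RecursiveIn.comp (O := {chi X}) (f := chi X) (h := Nat.succ)
    (Nat.RecursiveIn.oracle _ rfl) Nat.RecursiveIn.succ
  refine h.of_eq (fun n => ?_)
  refine Part.eq_some_iff.2 (Part.mem_bind_iff.2 ⟨n + 1, Part.mem_some _, Part.mem_some _⟩)

section Main

variable (T : (ℕ → Bool) ≃ (ℕ → Bool))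

theorem rows_of_equiv (hcont : Continuous T) (hadd : ∀ A B, T (xorF A B) = xorF (T A) (T B))
    (haut : ∀ A B, TLe A B ↔ TLe (T A) (T B)) :
    ∃ R : ℕ → List ℕ, Computable R ∧ ∀ (A : ℕ → Bool) n, T A n = par A (R n) := by
  have hsymm : Continuous T.symm := hcont.continuous_symm_of_equiv_compact_to_t2
  have hsadd : ∀ A B, T.symm (xorF A B) = xorF (T.symm A) (T.symm B) := by
    intro A B
    apply T.injective
    rw [hadd]
    simp
  let L : (ℕ → Bool) → (ℕ → Bool) := fun A => T.symm (fun n => T A (n + 1))
  have hTL : ∀ A, T (L A) = fun n => T A (n + 1) := fun A => by simp [L]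
  have hLcont : Continuous L := by
    refine hsymm.comp ?_
    exact continuous_pi (fun n => (continuous_apply (n + 1)).comp hcont)
  have hLadd : ∀ A B, L (xorF A B) = xorF (L A) (L B) := by
    intro A B
    simp only [L]
    rw [← hsadd]
    congr 1
    funext n
    rw [hadd]
    rfl
  have hL : ∀ A, TLe (L A) A := by
    intro A
    refine (haut _ _).2 ?_
    rw [hTL]
    exact shift_tle _
  obtain ⟨D, hD, hDs⟩ := computable_rows hLcont hLadd hL
  obtain ⟨K, hK⟩ := exists_support hcont hadd 0
  let r0 : List ℕ := (List.range K).filter (fun i => T (unit i) 0)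
  let R : ℕ → List ℕ := fun n =>
    Nat.rec (motive := fun _ => List ℕ) r0 (fun _ acc => flatD D acc) n
  refine ⟨R, ?_, ?_⟩
  · exact Computable.nat_rec (f := fun n => n) (g := fun _ => r0)
      (h := fun _ p => flatD D p.2) Computable.id (Computable.const r0)
      ((computable_flatD hD).comp (Computable.snd.comp Computable.snd)).to₂
  · intro A n
    induction n generalizing A with
    | zero => exact row_eq hadd hK A
    | succ n ih =>
        have h1 : T A (n + 1) = T (L A) n := by rw [hTL]
        rw [h1, ih (L A)]
        exact (par_flatD (hDs A) (R n)).symm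

theorem tle_of_equiv (hcont : Continuous T) (hadd : ∀ A B, T (xorF A B) = xorF (T A) (T B))
    (haut : ∀ A B, TLe A B ↔ TLe (T A) (T B)) (A : ℕ → Bool) : TLe (T A) A := by
  obtain ⟨R, hR, hRs⟩ := rows_of_equiv T hcont hadd haut
  refine (par_recursiveIn hR A).of_eq (fun n => ?_)
  simp [chi, hRs]

theorem both_of_equiv (hcont : Continuous T) (hadd : ∀ A B, T (xorF A B) = xorF (T A) (T B))
    (haut : ∀ A B, TLe A B ↔ TLe (T A) (T B)) (A : ℕ → Bool) : TLe (T A) A ∧ TLe A (T A) := by
  refine ⟨tle_of_equiv T hcont hadd haut A, ?_⟩
  have hsymm : Continuous T.symm := hcont.continuous_symm_of_equiv_compact_to_t2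
  have hsadd : ∀ A B, T.symm (xorF A B) = xorF (T.symm A) (T.symm B) := by
    intro A B
    apply T.injective
    rw [hadd]
    simp
  have hsaut : ∀ A B, TLe A B ↔ TLe (T.symm A) (T.symm B) := by
    intro A B
    rw [haut (T.symm A) (T.symm B)]
    simp
  have := tle_of_equiv T.symm hsymm hsadd hsaut (T A)
  simpa using this

end Main

end Vale.Agent.P327
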