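import Vale.Agent.P327.Rows

/-!
Main argument: the matrix of `L` with `L A ≤_T A` is computable; hence the rows of `T` are
computable, so `T A ≤_T A`.
-/

namespace Vale.Agent.P327

open Nat Part Encodable

section Baire

variable {L : (ℕ → Bool) → (ℕ → Bool)}

theorem isOpen_agree (B : ℕ → Bool) (M : ℕ) : IsOpen {A : ℕ → Bool | ∀ i < M, A i = B i} := by
  have : {A : ℕ → Bool | ∀ i < M, A i = B i} =
      ⋂ i ∈ Finset.range M, {A : ℕ → Bool | A i = B i} := by
    ext A; simp
  rw [this]
  refine isOpen_biInter_finset (fun i _ => ?_)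
  exact (isOpen_discrete ({B i} : Set Bool)).preimage (continuous_apply (A := fun _ : ℕ => Bool) i)

theorem exists_dense_code (hL : ∀ A, TLe (L A) A) :
    ∃ (c : OC) (A0 : ℕ → Bool) (N0 : ℕ), ∀ B : ℕ → Bool, (∀ i < N0, B i = A0 i) → ∀ M,
      ∃ A : ℕ → Bool, (∀ i < M, A i = B i) ∧ c.eval (chi A) = chi (L A) := by
  let F : OC → Set (ℕ → Bool) := fun c => closure {A | c.eval (chi A) = chi (L A)}
  have hU : ⋃ c, F c = Set.univ := by
    refine Set.eq_univ_of_forall (fun A => ?_)
    obtain ⟨c, hc⟩ := exists_code (hL A)
    exact Set.mem_iUnion.2 ⟨c, subset_closure hc⟩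
  obtain ⟨c, A0, hA0⟩ := nonempty_interior_of_iUnion_of_closed (fun c => isClosed_closure) hU
  obtain ⟨N0, hN0⟩ := exists_cyl isOpen_interior hA0
  refine ⟨c, A0, N0, fun B hB M => ?_⟩
  have hmem : B ∈ F c := interior_subset (hN0 B hB)
  obtain ⟨A, hA1, hA2⟩ := mem_closure_iff.1 hmem _ (isOpen_agree B M) (fun i _ => rfl)
  exact ⟨A, hA1, hA2⟩

end Baire

section Data

variable {L : (ℕ → Bool) → (ℕ → Bool)} {c : OC} {A0 : ℕ → Bool} {N0 : ℕ}

/-- A convergent computation on a string in the good cylinder fixes the value of `L`. -/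
theorem val_const (hcont : Continuous L) (hadd : ∀ A B, L (xorF A B) = xorF (L A) (L B))
    (hd : ∀ B : ℕ → Bool, (∀ i < N0, B i = A0 i) → ∀ M,
      ∃ A : ℕ → Bool, (∀ i < M, A i = B i) ∧ c.eval (chi A) = chi (L A))
    {τ : List Bool} {B : ℕ → Bool} (hB : InCyl τ B) (hB0 : ∀ i < N0, B i = A0 i) {n v : ℕ}
    (hv : v ∈ c.eval (look τ) n) : (L B n).toNat = v := by
  obtain ⟨K, hK⟩ := exists_support hcont hadd n
  obtain ⟨A, hA1, hA2⟩ := hd B hB0 (max τ.length K)
  have hA : InCyl τ A := fun i hi => by
    rw [hA1 i (lt_of_lt_of_le hi (le_max_left _ _))]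
    exact hB i hi
  have h1 := eval_mono (look_ext_chi hA) c _ _ hv
  rw [hA2] at h1
  have h2 : L A n = L B n := eq_of_support hadd hK
    (fun i hi => hA1 i (lt_of_lt_of_le hi (le_max_right _ _)))
  simp only [chi, Part.mem_some_iff] at h1
  rw [← h2, h1]

/-- Every string in the good cylinder has a convergent extension. -/
theorem exists_conv
    (hd : ∀ B : ℕ → Bool, (∀ i < N0, B i = A0 i) → ∀ M,
      ∃ A : ℕ → Bool, (∀ i < M, A i = B i) ∧ c.eval (chi A) = chi (L A))
    {ρ : List Bool} (hρ : ∀ i < N0, extF ρ i = A0 i) (n : ℕ) :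
    ∃ μ v, v ∈ c.eval (look (ρ ++ μ)) n := by
  obtain ⟨A, hA1, hA2⟩ := hd (extF ρ) hρ ρ.length
  have hA : InCyl ρ A := fun i hi => by
    rw [hA1 i hi]
    exact extF_inCyl ρ i hi
  have hv : (L A n).toNat ∈ c.eval (chi A) n := by
    rw [hA2]; simp [chi]
  obtain ⟨N, hN⟩ := eval_use A c _ _ hv
  obtain ⟨μ, hμ⟩ := pre_eq_append hA (le_max_right N ρ.length)
  refine ⟨μ, (L A n).toNat, ?_⟩
  rw [← hμ]
  exact eval_mono (look_pre_mono A (le_max_left _ _)) c _ _ hN

end Data

theorem partrec_look : Partrec₂ look := by
  have h : Computable (fun p : List Bool × ℕ => (p.1[p.2]?).map Bool.toNat) := by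
    refine Computable.option_map
      (Computable.list_getElem?.comp Computable.fst Computable.snd) ?_
    have : Computable (fun b : Bool => b.toNat) :=
      Primrec.to_comp (Primrec.dom_finite _)
    exact (this.comp Computable.snd).to₂
  exact h.ofOption

/-- A list of `k` entries `false`. -/
def zeros (k : ℕ) : List Bool := (List.range k).map (fun _ => false)

theorem computable_zeros : Computable zeros :=
  (Primrec.list_map Primrec.list_range ((Primrec.const false).to₂)).to_comp

theorem zeros_length (k : ℕ) : (zeros k).length = k := by simp [zeros]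

theorem extF_split (p : List Bool) (x : Bool) (μ : List Bool) (j : ℕ) :
    extF (p ++ x :: μ) j =
      if j < p.length then extF p j else if j = p.length then x else extF μ (j - p.length - 1) := by
  unfold extF
  by_cases h : j < p.length
  · simp only [h, if_true, List.getD_eq_getElem?_getD]
    rw [List.getElem?_append_left h]
  · by_cases h2 : j = p.length
    · subst h2; simp
    · have h3 : p.length < j := by omega
      obtain ⟨d, rfl⟩ : ∃ d, j = p.length + (d + 1) := ⟨j - p.length - 1, by omega⟩
      simp only [h, h2, if_false, List.getD_eq_getElem?_getD]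
      rw [List.getElem?_append_right (by omega)]
      have e1 : p.length + (d + 1) - p.length = d + 1 := by omega
      rw [e1]
      simp

theorem extF_pre_eq (A0 : ℕ → Bool) (N0 : ℕ) (ν : List Bool) :
    ∀ i < N0, extF (pre A0 N0 ++ ν) i = A0 i := by
  intro i hi
  have h := extF_inCyl (pre A0 N0 ++ ν)
  have h2 : i < (pre A0 N0 ++ ν).length := by simp [pre]; omega
  rw [h i h2, List.getElem_append_left (by simp [pre]; omega)]
  simp [pre]

section Matrix

variable {L : (ℕ → Bool) → (ℕ → Bool)} {c : OC} {A0 : ℕ → Bool} {N0 : ℕ}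

/-- The entries of the matrix of `L` from column `N0` on are computable. -/
theorem computable_tail (hcont : Continuous L) (hadd : ∀ A B, L (xorF A B) = xorF (L A) (L B))
    (hd : ∀ B : ℕ → Bool, (∀ i < N0, B i = A0 i) → ∀ M,
      ∃ A : ℕ → Bool, (∀ i < M, A i = B i) ∧ c.eval (chi A) = chi (L A)) :
    Computable₂ (fun n i => L (unit (N0 + (i - N0))) n) := by
  have hF : Partrec₂ (fun (τ : List Bool) n => c.eval (look τ) n) := eval_partrec partrec_look c
  let p : ℕ × ℕ → List Bool := fun a => pre A0 N0 ++ zeros (a.2 - N0)
  have hp : Computable p := by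
    refine Computable.list_append.comp (Computable.const _) ?_
    refine computable_zeros.comp ?_
    exact (Primrec.nat_sub.comp Primrec.snd (Primrec.const N0)).to_comp
  let P : ℕ × ℕ → List Bool →. ℕ × ℕ := fun a μ =>
    (c.eval (look (p a ++ false :: μ)) a.1).bind (fun v0 =>
      (c.eval (look (p a ++ true :: μ)) a.1).map (fun v1 => (v0, v1)))
  have hP : Partrec₂ P := by
    have hs (x : Bool) : Computable (fun q : (ℕ × ℕ) × List Bool => p q.1 ++ x :: q.2) :=
      Computable.list_append.comp (hp.comp Computable.fst)
        (Computable.list_cons.comp (Computable.const x) Computable.snd)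
    have f0 : Partrec (fun q : (ℕ × ℕ) × List Bool => c.eval (look (p q.1 ++ false :: q.2)) q.1.1) :=
      hF.comp (hs false) (Computable.fst.comp Computable.fst)
    have f1 : Partrec (fun r : ((ℕ × ℕ) × List Bool) × ℕ =>
        c.eval (look (p r.1.1 ++ true :: r.1.2)) r.1.1.1) :=
      hF.comp ((hs true).comp Computable.fst)
        (Computable.fst.comp (Computable.fst.comp Computable.fst))
    have f2 : Partrec (fun r : ((ℕ × ℕ) × List Bool) × ℕ =>
        (c.eval (look (p r.1.1 ++ true :: r.1.2)) r.1.1.1).map (fun v1 => (r.2, v1))) :=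
      Partrec.map f1 (Computable.pair (Computable.snd.comp Computable.fst) Computable.snd).to₂
    exact Partrec.bind f0 f2.to₂
  obtain ⟨s, hs, hs1, hs2⟩ := exists_search hP
  have hdom : ∀ a, (s a).Dom := by
    intro a
    have hρ0 : ∀ i < N0, extF (p a ++ [false]) i = A0 i := by
      have := extF_pre_eq A0 N0 (zeros (a.2 - N0) ++ [false])
      simpa [p, List.append_assoc] using this
    obtain ⟨μ0, v0, hv0⟩ := exists_conv hd hρ0 a.1
    have hρ1 : ∀ i < N0, extF (p a ++ true :: μ0) i = A0 i := by
      have := extF_pre_eq A0 N0 (zeros (a.2 - N0) ++ true :: μ0)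
      simpa [p, List.append_assoc] using this
    obtain ⟨μ1, v1, hv1⟩ := exists_conv hd hρ1 a.1
    refine hs2 a (μ0 ++ μ1) (v0, v1) ?_
    simp only [P, Part.mem_bind_iff, Part.mem_map_iff]
    refine ⟨v0, ?_, v1, ?_, rfl⟩
    · have := eval_mono (look_ext_append (p a ++ [false] ++ μ0) μ1) c _ _ (by simpa using hv0)
      simpa [List.append_assoc] using this
    · simpa [List.append_assoc] using hv1
  have hne : Computable (fun q : (ℕ × ℕ) × (List Bool × (ℕ × ℕ)) => !(decide (q.2.2.1 = q.2.2.2))) := by
    have : Primrec (fun q : ℕ × ℕ => !(decide (q.1 = q.2))) :=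
      Primrec.not.comp (Primrec.eq.decide.comp Primrec.fst Primrec.snd)
    exact this.to_comp.comp (Computable.snd.comp Computable.snd)
  have hmap : Partrec (fun a => (s a).map (fun x => !(decide (x.2.1 = x.2.2)))) :=
    Partrec.map hs hne.to₂
  refine hmap.of_eq_tot ?_
  rintro ⟨n, i⟩
  set x := (s (n, i)).get (hdom _) with hx
  have hxmem : x ∈ s (n, i) := Part.get_mem _
  refine (Part.mem_map_iff _).2 ⟨x, hxmem, ?_⟩
  have hxP := hs1 _ _ hxmem
  simp only [P, Part.mem_bind_iff, Part.mem_map_iff] at hxP
  obtain ⟨v0, hv0, v1, hv1, hvv⟩ := hxP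
  have hplen : (p (n, i)).length = N0 + (i - N0) := by
    simp [p, pre, zeros]
  set μ := x.1 with hμ
  have hB0 := val_const hcont hadd hd (extF_inCyl _) (by
    have := extF_pre_eq A0 N0 (zeros (i - N0) ++ false :: μ)
    simpa [p, List.append_assoc] using this) hv0
  have hB1 := val_const hcont hadd hd (extF_inCyl _) (by
    have := extF_pre_eq A0 N0 (zeros (i - N0) ++ true :: μ)
    simpa [p, List.append_assoc] using this) hv1
  have hrel : extF (p (n, i) ++ true :: μ) =
      xorF (extF (p (n, i) ++ false :: μ)) (unit (N0 + (i - N0))) := by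
    funext j
    simp only [xorF, unit, extF_split, hplen]
    by_cases h : j < N0 + (i - N0)
    · have : j ≠ N0 + (i - N0) := by omega
      simp [h, this]
    · by_cases h2 : j = N0 + (i - N0)
      · simp [h2]
      · simp [h, h2]
  rw [hrel, hadd] at hB1
  simp only [xorF] at hB1
  rw [← hvv]
  simp only
  rw [← hB0, ← hB1]
  cases h1 : L (extF (p (n, i) ++ false :: μ)) n <;>
    cases h2 : L (unit (N0 + (i - N0))) n <;> simp

/-- A finite amount of nonuniform information: each single column is computable. -/
theorem computable_col (hL : ∀ A, TLe (L A) A) (i : ℕ) : Computable (fun n => L (unit i) n) := by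
  have hu : Nat.Partrec (chi (unit i)) := by
    have h1 : Primrec (fun n : ℕ => (unit i n).toNat) := by
      have h2 : Primrec (fun n : ℕ => if n = i then 1 else 0) :=
        Primrec.ite (Primrec.eq.comp Primrec.id (Primrec.const i)) (Primrec.const 1) (Primrec.const 0)
      refine h2.of_eq (fun n => ?_)
      by_cases h : n = i <;> simp [unit, h]
    exact Partrec.nat_iff.1 (h1.to_comp.partrec)
  have hpart : Nat.Partrec (chi (L (unit i))) :=
    Nat.RecursiveIn.partrec_of_oracle (O := {chi (unit i)})
      (fun g hg => by rw [Set.mem_singleton_iff.1 hg]; exact hu) (hL (unit i))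
  have h3 : Computable (fun n => (L (unit i) n).toNat) :=
    (Partrec.nat_iff.2 hpart).of_eq_tot (fun n => by simp [chi])
  have h4 : Primrec (fun m : ℕ => !(decide (m = 0))) :=
    Primrec.not.comp (Primrec.eq.decide.comp Primrec.id (Primrec.const 0))
  refine (h4.to_comp.comp h3).of_eq (fun n => ?_)
  cases L (unit i) n <;> simp

theorem computable_matrix (hcont : Continuous L) (hadd : ∀ A B, L (xorF A B) = xorF (L A) (L B))
    (hL : ∀ A, TLe (L A) A) : Computable₂ (fun n i => L (unit i) n) := by
  obtain ⟨c, A0, N0, hd⟩ := exists_dense_code hL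
  have htail := computable_tail hcont hadd hd
  have key : ∀ N, Computable₂ (fun n i =>
      if i < N then L (unit i) n else L (unit (N0 + (i - N0))) n) := by
    intro N
    induction N with
    | zero => simpa using htail
    | succ N ih =>
        have hc : Computable (fun q : ℕ × ℕ => decide (q.2 = N)) :=
          (Primrec.eq.decide.comp Primrec.snd (Primrec.const N)).to_comp
        refine (Computable.cond hc ((computable_col hL N).comp Computable.fst) ih).of_eq ?_
        rintro ⟨n, i⟩
        by_cases h : i = N
        · subst h; simp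
        · have : i < N + 1 ↔ i < N := by omega
          simp [h, this]
  refine (key N0).of_eq ?_
  rintro ⟨n, i⟩
  by_cases h : i < N0
  · simp [h]
  · have : N0 + (i - N0) = i := by omega
    simp [h, this]

/-- The rows of `L` have a computable support bound. -/
theorem computable_support (hcont : Continuous L) (hadd : ∀ A B, L (xorF A B) = xorF (L A) (L B))
    (hL : ∀ A, TLe (L A) A) :
    ∃ K : ℕ → ℕ, Computable K ∧ ∀ n (A : ℕ → Bool), (∀ i < K n, A i = false) → L A n = false := by
  obtain ⟨c, A0, N0, hd⟩ := exists_dense_code hL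
  have hF : Partrec₂ (fun (τ : List Bool) n => c.eval (look τ) n) := eval_partrec partrec_look c
  let P : ℕ → List Bool →. ℕ := fun n μ => c.eval (look (pre A0 N0 ++ μ)) n
  have hP : Partrec₂ P :=
    hF.comp (Computable.list_append.comp (Computable.const _) Computable.snd) Computable.fst
  obtain ⟨s, hs, hs1, hs2⟩ := exists_search hP
  have hdom : ∀ n, (s n).Dom := by
    intro n
    have hρ : ∀ i < N0, extF (pre A0 N0) i = A0 i := by
      have := extF_pre_eq A0 N0 []
      simpa using this
    obtain ⟨μ, v, hv⟩ := exists_conv hd hρ n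
    exact hs2 n μ v hv
  let g : ℕ → List Bool × ℕ := fun n => (s n).get (hdom n)
  have hg : Computable g := hs.of_eq_tot (fun n => Part.get_mem _)
  refine ⟨fun n => (pre A0 N0 ++ (g n).1).length, ?_, ?_⟩
  · exact Computable.list_length.comp
      (Computable.list_append.comp (Computable.const _) (Computable.fst.comp hg))
  · intro n A hA
    have hmem : (g n).2 ∈ P n (g n).1 := hs1 n (g n) (Part.get_mem _)
    set τ := pre A0 N0 ++ (g n).1 with hτ
    have hB := val_const hcont hadd hd (extF_inCyl τ) (extF_pre_eq A0 N0 _) hmem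
    have hA' : InCyl τ (xorF A (extF τ)) := by
      intro i hi
      have := extF_inCyl τ i hi
      simp only [xorF, hA i hi, this, Bool.false_xor]
    have hB' := val_const hcont hadd hd hA' (by
      intro i hi
      have h1 : i < τ.length := by simp [τ, pre]; omega
      simp only [xorF, hA i h1, Bool.false_xor]
      exact extF_pre_eq A0 N0 _ i hi) hmem
    rw [hadd] at hB'
    simp only [xorF] at hB'
    have h2 : (xor (L A n) (L (extF τ) n)).toNat = (L (extF τ) n).toNat := hB'.trans hB.symm
    generalize L A n = a at h2 ⊢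
    generalize L (extF τ) n = b at h2
    revert h2
    cases a <;> cases b <;> simp

/-- The rows of `L` form a computable sequence of finite lists. -/
theorem computable_rows (hcont : Continuous L) (hadd : ∀ A B, L (xorF A B) = xorF (L A) (L B))
    (hL : ∀ A, TLe (L A) A) :
    ∃ D : ℕ → List ℕ, Computable D ∧ ∀ (A : ℕ → Bool) n, L A n = par A (D n) := by
  obtain ⟨K, hK, hKs⟩ := computable_support hcont hadd hL
  have hb := computable_matrix hcont hadd hL
  let D : ℕ → List ℕ := fun n =>
    Nat.rec (motive := fun _ => List ℕ) [] (fun y IH => IH ++ cond (L (unit y) n) [y] []) (K n)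
  have hDeq : ∀ n k, (Nat.rec (motive := fun _ => List ℕ) [] (fun y IH =>
      IH ++ cond (L (unit y) n) [y] []) k : List ℕ) =
      (List.range k).filter (fun i => L (unit i) n) := by
    intro n k
    induction k with
    | zero => rfl
    | succ k ih =>
        rw [List.range_succ, List.filter_append, ← ih]
        cases h : L (unit k) n <;> simp [h]
  refine ⟨D, ?_, ?_⟩
  · have h1 : Computable (fun q : ℕ × (ℕ × List ℕ) => q.2.2 ++ cond (L (unit q.2.1) q.1) [q.2.1] []) := by
      refine Computable.list_append.comp (Computable.snd.comp Computable.snd) ?_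
      refine Computable.cond (hb.comp Computable.fst (Computable.fst.comp Computable.snd)) ?_
        (Computable.const ([] : List ℕ))
      exact Computable.list_cons.comp (Computable.fst.comp Computable.snd)
        (Computable.const ([] : List ℕ))
    exact Computable.nat_rec (f := K) (g := fun _ => ([] : List ℕ))
      (h := fun n p => p.2 ++ cond (L (unit p.1) n) [p.1] []) hK (Computable.const ([] : List ℕ)) h1.to₂
  · intro A n
    simp only [D, hDeq]
    exact row_eq hadd (hKs n) A

end Matrix

/-! ### From rows of `L` to rows of `T`. -/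

/-- Concatenate the rows indexed by a list. -/
def flatD (D : ℕ → List ℕ) (l : List ℕ) : List ℕ :=
  Nat.rec (motive := fun _ => List ℕ) [] (fun k acc => acc ++ D ((l[k]?).getD 0)) l.length

theorem computable_flatD {D : ℕ → List ℕ} (hD : Computable D) : Computable (flatD D) := by
  have h1 : Computable (fun q : List ℕ × (ℕ × List ℕ) => q.2.2 ++ D ((q.1[q.2.1]?).getD 0)) := by
    refine Computable.list_append.comp (Computable.snd.comp Computable.snd) (hD.comp ?_)
    exact Computable.option_getD
      (Computable.list_getElem?.comp Computable.fst (Computable.fst.comp Computable.snd))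
      (Computable.const 0)
  exact Computable.nat_rec (f := fun l : List ℕ => l.length) (g := fun _ => ([] : List ℕ))
    (h := fun l p => p.2 ++ D ((l[p.1]?).getD 0)) Computable.list_length
    (Computable.const ([] : List ℕ)) h1.to₂

theorem par_flatD {D : ℕ → List ℕ} {A A' : ℕ → Bool} (h : ∀ n, A' n = par A (D n)) (l : List ℕ) :
    par A (flatD D l) = par A' l := by
  have key : ∀ k, k ≤ l.length →
      par A (Nat.rec (motive := fun _ => List ℕ) [] (fun k acc => acc ++ D ((l[k]?).getD 0)) k) =
      par A' (l.take k) := by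
    intro k
    induction k with
    | zero => intro _; simp [par]
    | succ k ih =>
        intro hk
        have hk' : k < l.length := by omega
        simp only
        rw [par_append, ih (by omega), List.take_add_one, par_append]
        simp [hk', par, h]
  have := key l.length le_rfl
  simpa [flatD] using this

end Vale.Agent.P327
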