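import Mathlib

/-!
Oracle codes: a countable family of oracle programs, their evaluation on an arbitrary
oracle, monotonicity and the use principle.
-/

namespace Vale.Agent.P327

open Nat Part

/-- Characteristic function of a set of naturals, as a total oracle. -/
def chi (A : ℕ → Bool) : ℕ →. ℕ := fun n => Part.some (A n).toNat

/-- Programs with an oracle. -/
inductive OC : Type
  | zero | succ | left | right | oracle
  | pair (f h : OC) | comp (f h : OC) | prec (f h : OC) | rfind (f : OC)
  deriving Countable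

/-- Evaluation of a program with the oracle `g`. -/
def OC.eval (g : ℕ →. ℕ) : OC → (ℕ →. ℕ)
  | .zero => fun _ => 0
  | .succ => Nat.succ
  | .left => fun n => (Nat.unpair n).1
  | .right => fun n => (Nat.unpair n).2
  | .oracle => g
  | .pair f h => fun n => Nat.pair <$> f.eval g n <*> h.eval g n
  | .comp f h => fun n => h.eval g n >>= f.eval g
  | .prec f h => fun p =>
      let (a, n) := Nat.unpair p
      n.rec (f.eval g a) fun y IH => do
        let i ← IH
        h.eval g (Nat.pair a (Nat.pair y i))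
  | .rfind f => fun a => Nat.rfind fun n => (fun m => m = 0) <$> f.eval g (Nat.pair a n)

theorem exists_code {g f : ℕ →. ℕ} (h : Nat.RecursiveIn {g} f) : ∃ c : OC, c.eval g = f := by
  induction h with
  | zero => exact ⟨.zero, rfl⟩
  | succ => exact ⟨.succ, rfl⟩
  | left => exact ⟨.left, rfl⟩
  | right => exact ⟨.right, rfl⟩
  | oracle g' hg' =>
      have : g' = g := hg'
      subst this
      exact ⟨.oracle, rfl⟩
  | pair _ _ ih1 ih2 =>
      obtain ⟨c1, rfl⟩ := ih1
      obtain ⟨c2, rfl⟩ := ih2
      exact ⟨.pair c1 c2, rfl⟩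
  | comp _ _ ih1 ih2 =>
      obtain ⟨c1, rfl⟩ := ih1
      obtain ⟨c2, rfl⟩ := ih2
      exact ⟨.comp c1 c2, rfl⟩
  | prec _ _ ih1 ih2 =>
      obtain ⟨c1, rfl⟩ := ih1
      obtain ⟨c2, rfl⟩ := ih2
      exact ⟨.prec c1 c2, rfl⟩
  | rfind _ ih1 =>
      obtain ⟨c1, rfl⟩ := ih1
      exact ⟨.rfind c1, rfl⟩

theorem mem_pair_iff {a b : Part ℕ} {v : ℕ} :
    v ∈ (Nat.pair <$> a <*> b) ↔ ∃ x ∈ a, ∃ y ∈ b, Nat.pair x y = v := by
  simp [Seq.seq, Part.mem_bind_iff, Part.mem_map_iff]

theorem mem_bind' {a : Part ℕ} {f : ℕ → Part ℕ} {v : ℕ} : v ∈ (a >>= f) ↔ ∃ x ∈ a, v ∈ f x :=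
  Part.mem_bind_iff

theorem mem_map' {a : Part ℕ} {f : ℕ → Bool} {v : Bool} : v ∈ (f <$> a) ↔ ∃ x ∈ a, f x = v :=
  Part.mem_map_iff _

/-- `g` is extended by `h`. -/
def Ext (g h : ℕ →. ℕ) : Prop := ∀ n v, v ∈ g n → v ∈ h n

theorem eval_mono {g h : ℕ →. ℕ} (hgh : Ext g h) (c : OC) : ∀ n v, v ∈ c.eval g n → v ∈ c.eval h n := by
  induction c with
  | zero => intro n v hv; exact hv
  | succ => intro n v hv; exact hv
  | left => intro n v hv; exact hv
  | right => intro n v hv; exact hv
  | oracle => exact hgh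
  | pair f k ih1 ih2 =>
      intro n v hv
      obtain ⟨a, ha, b, hb, rfl⟩ := mem_pair_iff.1 hv
      exact mem_pair_iff.2 ⟨a, ih1 _ _ ha, b, ih2 _ _ hb, rfl⟩
  | comp f k ih1 ih2 =>
      intro n v hv
      obtain ⟨a, ha, hb⟩ := mem_bind'.1 hv
      exact mem_bind'.2 ⟨a, ih2 _ _ ha, ih1 _ _ hb⟩
  | prec f k ih1 ih2 =>
      intro p v hv
      change v ∈ Nat.rec (motive := fun _ => Part ℕ) (f.eval g (Nat.unpair p).1)
        (fun y IH => IH >>= fun i => k.eval g (Nat.pair (Nat.unpair p).1 (Nat.pair y i)))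
        (Nat.unpair p).2 at hv
      change v ∈ Nat.rec (motive := fun _ => Part ℕ) (f.eval h (Nat.unpair p).1)
        (fun y IH => IH >>= fun i => k.eval h (Nat.pair (Nat.unpair p).1 (Nat.pair y i)))
        (Nat.unpair p).2
      generalize (Nat.unpair p).1 = a at hv ⊢
      generalize (Nat.unpair p).2 = m at hv ⊢
      induction m generalizing v with
      | zero => exact ih1 _ _ hv
      | succ m ihm =>
          obtain ⟨i, hi, hv⟩ := mem_bind'.1 hv
          exact mem_bind'.2 ⟨i, ihm _ hi, ih2 _ _ hv⟩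
  | rfind f ih1 =>
      intro n v hv
      obtain ⟨h1, hlt⟩ := Nat.mem_rfind.1 hv
      obtain ⟨m, hm, hm0⟩ := mem_map'.1 h1
      refine Nat.mem_rfind.2 ⟨mem_map'.2 ⟨m, ih1 _ _ hm, hm0⟩, ?_⟩
      intro k hk
      obtain ⟨m', hm', hm0'⟩ := mem_map'.1 (hlt hk)
      exact mem_map'.2 ⟨m', ih1 _ _ hm', hm0'⟩

/-- The finite oracle given by a list. -/
def look (τ : List Bool) : ℕ →. ℕ := fun n => ((τ[n]?).map Bool.toNat : Option ℕ)

/-- The initial segment of length `N`. -/
def pre (A : ℕ → Bool) (N : ℕ) : List Bool := (List.range N).map A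

theorem pre_length (A : ℕ → Bool) (N : ℕ) : (pre A N).length = N := by simp [pre]

theorem look_pre_ext_chi (A : ℕ → Bool) (N : ℕ) : Ext (look (pre A N)) (chi A) := by
  intro n v hv
  simp only [look, pre, Part.mem_coe] at hv
  simp only [chi, Part.mem_some_iff]
  rcases lt_or_ge n N with h | h
  · simp [h] at hv
    exact hv.symm
  · simp [h] at hv

theorem look_pre_mono (A : ℕ → Bool) {N M : ℕ} (h : N ≤ M) : Ext (look (pre A N)) (look (pre A M)) := by
  intro n v hv
  simp only [look, pre, Part.mem_coe] at hv ⊢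
  rcases lt_or_ge n N with h' | h'
  · have : n < M := lt_of_lt_of_le h' h
    simp [h'] at hv
    simp [this]
    exact hv
  · simp [h'] at hv

/-- The use principle: a convergent computation only reads finitely much of the oracle. -/
theorem eval_use (A : ℕ → Bool) (c : OC) :
    ∀ n v, v ∈ c.eval (chi A) n → ∃ N, v ∈ c.eval (look (pre A N)) n := by
  induction c with
  | zero => intro n v hv; exact ⟨0, hv⟩
  | succ => intro n v hv; exact ⟨0, hv⟩
  | left => intro n v hv; exact ⟨0, hv⟩
  | right => intro n v hv; exact ⟨0, hv⟩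
  | oracle =>
      intro n v hv
      refine ⟨n + 1, ?_⟩
      simp only [OC.eval, chi, Part.mem_some_iff] at hv
      simp [OC.eval, look, pre, hv]
  | pair f k ih1 ih2 =>
      intro n v hv
      obtain ⟨a, ha, b, hb, rfl⟩ := mem_pair_iff.1 hv
      obtain ⟨N1, h1⟩ := ih1 _ _ ha
      obtain ⟨N2, h2⟩ := ih2 _ _ hb
      refine ⟨max N1 N2, ?_⟩
      exact mem_pair_iff.2 ⟨a, eval_mono (look_pre_mono A (le_max_left _ _)) f _ _ h1, b,
        eval_mono (look_pre_mono A (le_max_right _ _)) k _ _ h2, rfl⟩
  | comp f k ih1 ih2 =>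
      intro n v hv
      obtain ⟨a, ha, hb⟩ := mem_bind'.1 hv
      obtain ⟨N2, h2⟩ := ih2 _ _ ha
      obtain ⟨N1, h1⟩ := ih1 _ _ hb
      refine ⟨max N1 N2, ?_⟩
      exact mem_bind'.2 ⟨a, eval_mono (look_pre_mono A (le_max_right _ _)) k _ _ h2,
        eval_mono (look_pre_mono A (le_max_left _ _)) f _ _ h1⟩
  | prec f k ih1 ih2 =>
      intro p v hv
      change v ∈ Nat.rec (motive := fun _ => Part ℕ) (f.eval (chi A) (Nat.unpair p).1)
        (fun y IH => IH >>= fun i => k.eval (chi A) (Nat.pair (Nat.unpair p).1 (Nat.pair y i)))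
        (Nat.unpair p).2 at hv
      have goal_form : ∀ (g : ℕ →. ℕ), (OC.prec f k).eval g p =
          Nat.rec (motive := fun _ => Part ℕ) (f.eval g (Nat.unpair p).1)
        (fun y IH => IH >>= fun i => k.eval g (Nat.pair (Nat.unpair p).1 (Nat.pair y i)))
        (Nat.unpair p).2 := fun _ => rfl
      simp only [goal_form]
      have mono_rec : ∀ (a m : ℕ) (g h : ℕ →. ℕ) (_ : Ext g h) (u : ℕ),
          u ∈ (Nat.rec (motive := fun _ => Part ℕ) (f.eval g a)
            (fun y IH => IH >>= fun i => k.eval g (Nat.pair a (Nat.pair y i))) m : Part ℕ) →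
          u ∈ (Nat.rec (motive := fun _ => Part ℕ) (f.eval h a)
            (fun y IH => IH >>= fun i => k.eval h (Nat.pair a (Nat.pair y i))) m : Part ℕ) := by
        intro a m g h hgh
        induction m with
        | zero => exact eval_mono hgh f _
        | succ m ihm =>
            intro u hu
            obtain ⟨i, hi, hv⟩ := mem_bind'.1 hu
            exact mem_bind'.2 ⟨i, ihm _ hi, eval_mono hgh k _ _ hv⟩
      generalize (Nat.unpair p).1 = a at hv ⊢
      generalize (Nat.unpair p).2 = m at hv ⊢
      induction m generalizing v with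
      | zero => exact ih1 _ _ hv
      | succ m ihm =>
          obtain ⟨i, hi, hv⟩ := mem_bind'.1 hv
          obtain ⟨N1, h1⟩ := ihm _ hi
          obtain ⟨N2, h2⟩ := ih2 _ _ hv
          refine ⟨max N1 N2, mem_bind'.2 ⟨i, ?_, eval_mono (look_pre_mono A (le_max_right _ _)) k _ _ h2⟩⟩
          exact mono_rec a m _ _ (look_pre_mono A (le_max_left N1 N2)) i h1
  | rfind f ih1 =>
      intro n v hv
      obtain ⟨h1', hlt⟩ := Nat.mem_rfind.1 hv
      obtain ⟨m, hm, hm0⟩ := mem_map'.1 h1'
      obtain ⟨N0, hN0⟩ := ih1 _ _ hm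
      have key : ∀ b, b ≤ v → ∃ N, ∀ k < b, false ∈ (fun m => decide (m = 0)) <$>
          f.eval (look (pre A N)) (Nat.pair n k) := by
        intro b
        induction b with
        | zero => intro _; exact ⟨0, fun k hk => absurd hk (Nat.not_lt_zero _)⟩
        | succ b ihb =>
            intro hb
            obtain ⟨N, hN⟩ := ihb (by omega)
            have hb' : b < v := by omega
            obtain ⟨m', hm', hm0'⟩ := mem_map'.1 (hlt hb')
            obtain ⟨N', hN'⟩ := ih1 _ _ hm'
            refine ⟨max N N', ?_⟩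
            intro k hk
            rcases Nat.lt_succ_iff_lt_or_eq.mp hk with hk | rfl
            · obtain ⟨x, hx, hx0⟩ := mem_map'.1 (hN k hk)
              exact mem_map'.2 ⟨x, eval_mono (look_pre_mono A (le_max_left _ _)) f _ _ hx, hx0⟩
            · exact mem_map'.2 ⟨m', eval_mono (look_pre_mono A (le_max_right _ _)) f _ _ hN', hm0'⟩
      obtain ⟨N1, hN1⟩ := key v le_rfl
      refine ⟨max N0 N1, ?_⟩
      refine Nat.mem_rfind.2 ⟨mem_map'.2 ⟨m, eval_mono (look_pre_mono A (le_max_left _ _)) f _ _ hN0, hm0⟩, ?_⟩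
      intro k hk
      obtain ⟨x, hx, hx0⟩ := mem_map'.1 (hN1 k hk)
      exact mem_map'.2 ⟨x, eval_mono (look_pre_mono A (le_max_right _ _)) f _ _ hx, hx0⟩

/-- For a fixed program, evaluation is recursive in the parameter of the oracle family. -/
theorem eval_partrec {α : Type} [Primcodable α] {G : α → ℕ →. ℕ} (hG : Partrec₂ G) (c : OC) :
    Partrec₂ (fun a n => c.eval (G a) n) := by
  induction c with
  | zero =>
      exact ((Computable.const (0 : ℕ)).partrec).of_eq (fun _ => rfl)
  | succ =>
      exact ((Computable.succ.comp Computable.snd).partrec).of_eq (fun _ => rfl)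
  | left =>
      exact ((Computable.fst.comp (Computable.unpair.comp Computable.snd)).partrec).of_eq
        (fun _ => rfl)
  | right =>
      exact ((Computable.snd.comp (Computable.unpair.comp Computable.snd)).partrec).of_eq
        (fun _ => rfl)
  | oracle => exact hG
  | pair f k ih1 ih2 =>
      have h := Partrec.bind ih1 (Partrec.map
        (ih2.comp (Computable.fst.comp Computable.fst) (Computable.snd.comp Computable.fst))
        (Primrec₂.natPair.to_comp.comp (Computable.snd.comp Computable.fst) Computable.snd).to₂).to₂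
      refine h.of_eq ?_
      rintro ⟨a, n⟩
      ext x
      refine Iff.trans ?_ mem_pair_iff.symm
      simp [Part.mem_bind_iff, Part.mem_map_iff]
  | comp f k ih1 ih2 =>
      have h := Partrec.bind ih2 (ih1.comp (Computable.fst.comp Computable.fst) Computable.snd).to₂
      refine h.of_eq ?_
      rintro ⟨a, n⟩
      rfl
  | prec f k ih1 ih2 =>
      have h := Partrec.nat_rec
        (f := fun p : α × ℕ => (Nat.unpair p.2).2)
        (g := fun p : α × ℕ => f.eval (G p.1) (Nat.unpair p.2).1)
        (h := fun (p : α × ℕ) (q : ℕ × ℕ) =>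
          k.eval (G p.1) (Nat.pair (Nat.unpair p.2).1 (Nat.pair q.1 q.2)))
        (Computable.snd.comp (Computable.unpair.comp Computable.snd))
        (ih1.comp Computable.fst (Computable.fst.comp (Computable.unpair.comp Computable.snd)))
        (ih2.comp (Computable.fst.comp Computable.fst)
          (Primrec₂.natPair.to_comp.comp
            (Computable.fst.comp (Computable.unpair.comp (Computable.snd.comp Computable.fst)))
            (Primrec₂.natPair.to_comp.comp (Computable.fst.comp Computable.snd)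
              (Computable.snd.comp Computable.snd)))).to₂
      refine h.of_eq ?_
      rintro ⟨a, p⟩
      rfl
  | rfind f ih1 =>
      have hz : Computable (fun x : ℕ => decide (x = 0)) :=
        ((Primrec.eq.comp Primrec.id (Primrec.const 0)).decide).to_comp
      have h := Partrec.rfind (p := fun (p : α × ℕ) (m : ℕ) =>
          (fun x => decide (x = 0)) <$> f.eval (G p.1) (Nat.pair p.2 m))
        (Partrec.map
          (ih1.comp (Computable.fst.comp Computable.fst)
            (Primrec₂.natPair.to_comp.comp (Computable.snd.comp Computable.fst) Computable.snd))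
          (hz.comp Computable.snd).to₂).to₂
      refine h.of_eq ?_
      rintro ⟨a, p⟩
      rfl

end Vale.Agent.P327
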