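import Vale.Agent.P327.Final

/-!
An additive map of Cantor space whose coordinates have the Baire property is continuous
(Pettis' argument), so the continuity hypothesis of the main theorem can be replaced by the Baire
property; this covers every Borel map.
-/

namespace Vale.Agent.P327

open Filter Topology

/-- Translation by `x`. -/
def tr (x : ℕ → Bool) : (ℕ → Bool) → (ℕ → Bool) := fun y => xorF y x

theorem tr_tr (x y : ℕ → Bool) : tr x (tr x y) = y := by
  funext n; simp [tr, xorF]

theorem continuous_tr (x : ℕ → Bool) : Continuous (tr x) := by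
  refine continuous_pi (fun n => ?_)
  have : (fun y : ℕ → Bool => tr x y n) = (fun b => xor b (x n)) ∘ (fun y : ℕ → Bool => y n) := rfl
  rw [this]
  exact (continuous_of_discreteTopology).comp (continuous_apply n)

/-- The translate of a residual set is residual. -/
theorem tr_residual (x : ℕ → Bool) {R : Set (ℕ → Bool)} (hR : R ∈ residual (ℕ → Bool)) :
    tr x ⁻¹' R ∈ residual (ℕ → Bool) := by
  let h : (ℕ → Bool) ≃ₜ (ℕ → Bool) :=
    { toFun := tr x, invFun := tr x, left_inv := tr_tr x, right_inv := tr_tr x,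
      continuous_toFun := continuous_tr x, continuous_invFun := continuous_tr x }
  obtain ⟨S, hSo, hSd, hSc, hS⟩ := mem_residual_iff.1 hR
  refine mem_residual_iff.2 ⟨(fun t => tr x ⁻¹' t) '' S, ?_, ?_, hSc.image _, ?_⟩
  · rintro _ ⟨t, ht, rfl⟩
    exact (hSo t ht).preimage (continuous_tr x)
  · rintro _ ⟨t, ht, rfl⟩
    exact (hSd t ht).preimage h.isOpenMap
  · intro y hy
    refine hS ?_
    intro t ht
    exact hy _ ⟨t, ht, rfl⟩

variable {T : (ℕ → Bool) → (ℕ → Bool)}

/-- Pettis' argument for the coordinates of an additive map. -/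
theorem support_of_baire (hadd : ∀ A B, T (xorF A B) = xorF (T A) (T B))
    (hB : ∀ n, BaireMeasurableSet {A : ℕ → Bool | T A n = true}) (n : ℕ) :
    ∃ K, ∀ x : ℕ → Bool, (∀ i < K, x i = false) → T x n = false := by
  let H : Set (ℕ → Bool) := {A | T A n = false}
  have hHb : BaireMeasurableSet H := by
    have : H = {A : ℕ → Bool | T A n = true}ᶜ := by
      ext A; simp [H]
    rw [this]
    exact (hB n).compl
  obtain ⟨u, hu, hHu⟩ := hHb.residualEq_isOpen
  have hR : {y | H y ↔ u y} ∈ residual (ℕ → Bool) := by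
    rw [Filter.eventuallyEq_set] at hHu
    exact hHu
  set R : Set (ℕ → Bool) := {y | y ∈ H ↔ y ∈ u} with hRdef
  have hxor : ∀ x y, T (tr x y) n = xor (T y n) (T x n) := by
    intro x y
    have := congrFun (hadd y x) n
    simpa [tr, xorF] using this
  by_cases hall : ∀ x : ℕ → Bool, T x n = false
  · exact ⟨0, fun x _ => hall x⟩
  push_neg at hall
  obtain ⟨a, ha⟩ := hall
  have ha' : T a n = true := by simpa using ha
  have hune : u.Nonempty := by
    by_contra hne
    rw [Set.not_nonempty_iff_eq_empty] at hne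
    have hboth : R ∩ tr a ⁻¹' R ∈ residual (ℕ → Bool) := inter_mem hR (tr_residual a hR)
    obtain ⟨y, hy1, hy2⟩ := (dense_of_mem_residual hboth).nonempty
    have h1 : y ∉ H := fun h => by
      have := hy1.1 h
      rw [hne] at this
      exact this
    have h2 : tr a y ∉ H := fun h => by
      have := hy2.1 h
      rw [hne] at this
      exact this
    simp only [H, Set.mem_setOf_eq, hxor, ha'] at h1 h2
    simp only [Bool.not_eq_false] at h1 h2
    simp [h1] at h2
  obtain ⟨A0, hA0⟩ := hune
  obtain ⟨K, hK⟩ := exists_cyl hu hA0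
  refine ⟨K, fun x hx => ?_⟩
  have hboth : R ∩ tr x ⁻¹' R ∈ residual (ℕ → Bool) := inter_mem hR (tr_residual x hR)
  have hopen : IsOpen {B : ℕ → Bool | ∀ i < K, B i = A0 i} := by
    have : {B : ℕ → Bool | ∀ i < K, B i = A0 i} =
        ⋂ i ∈ Finset.range K, {A : ℕ → Bool | A i = A0 i} := by
      ext A; simp
    rw [this]
    refine isOpen_biInter_finset (fun i _ => ?_)
    exact (isOpen_discrete ({A0 i} : Set Bool)).preimage (continuous_apply (A := fun _ : ℕ => Bool) i)
  obtain ⟨y, hyc, hy1, hy2⟩ := (dense_of_mem_residual hboth).inter_open_nonempty _ hopen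
    ⟨A0, fun _ _ => rfl⟩
  have h1 : y ∈ H := hy1.2 (hK y hyc)
  have h2 : tr x y ∈ H := hy2.2 (hK _ (fun i hi => by
    simp only [tr, xorF, hx i hi, Bool.xor_false]
    exact hyc i hi))
  simp only [H, Set.mem_setOf_eq] at h1 h2
  rw [hxor, h1] at h2
  simpa using h2

theorem continuous_of_baire (hadd : ∀ A B, T (xorF A B) = xorF (T A) (T B))
    (hB : ∀ n, BaireMeasurableSet {A : ℕ → Bool | T A n = true}) : Continuous T := by
  refine continuous_pi (fun n => ?_)
  obtain ⟨K, hK⟩ := support_of_baire hadd hB n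
  refine IsLocallyConstant.continuous ?_
  refine (IsLocallyConstant.iff_exists_open _).2 (fun A => ?_)
  refine ⟨{B : ℕ → Bool | ∀ i < K, B i = A i}, ?_, fun _ _ => rfl, fun B hBA => ?_⟩
  · have : {B : ℕ → Bool | ∀ i < K, B i = A i} =
        ⋂ i ∈ Finset.range K, {C : ℕ → Bool | C i = A i} := by
      ext C; simp
    rw [this]
    refine isOpen_biInter_finset (fun i _ => ?_)
    exact (isOpen_discrete ({A i} : Set Bool)).preimage (continuous_apply (A := fun _ : ℕ => Bool) i)
  · exact eq_of_support hadd hK hBA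

/-- Main theorem in its final form. -/
theorem main_theorem (hbij : Function.Bijective T)
    (hB : ∀ n, BaireMeasurableSet {A : ℕ → Bool | T A n = true})
    (hadd : ∀ A B : ℕ → Bool, T (fun n => xor (A n) (B n)) = fun n => xor (T A n) (T B n))
    (haut : ∀ A B : ℕ → Bool, TuringReducible (chi A) (chi B) ↔
      TuringReducible (chi (T A)) (chi (T B))) (A : ℕ → Bool) :
    TuringEquivalent (chi (T A)) (chi A) := by
  have hadd' : ∀ A B, T (xorF A B) = xorF (T A) (T B) := hadd
  have hcont : Continuous T := continuous_of_baire hadd' hB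
  let E : (ℕ → Bool) ≃ (ℕ → Bool) := Equiv.ofBijective T hbij
  have haut' : ∀ A B, TLe A B ↔ TLe (E A) (E B) := by
    intro A B
    have := haut A B
    simp only [TuringReducible, RecursiveIn.iff_nat] at this
    exact this
  obtain ⟨h1, h2⟩ := both_of_equiv E hcont hadd' haut' A
  refine ⟨?_, ?_⟩
  · exact RecursiveIn.iff_nat.2 h1
  · exact RecursiveIn.iff_nat.2 h2

end Vale.Agent.P327
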