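import Vale.Agent.P327.Oracle

/-!
Continuous additive maps of Cantor space have finite rows, and a Baire category argument shows
that the rows of a map `L` with `L A ≤_T A` for all `A` are uniformly computable.
-/

namespace Vale.Agent.P327

open Nat Part Encodable

/-- Pointwise xor. -/
def xorF (A B : ℕ → Bool) : ℕ → Bool := fun n => xor (A n) (B n)

/-- The empty set. -/
def zeroF : ℕ → Bool := fun _ => false

/-- The singleton `{i}`. -/
def unit (i : ℕ) : ℕ → Bool := fun j => decide (j = i)

/-- Parity of `A` along a list of positions. -/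
def par (A : ℕ → Bool) : List ℕ → Bool
  | [] => false
  | i :: l => xor (A i) (par A l)

theorem par_append (A : ℕ → Bool) (l m : List ℕ) : par A (l ++ m) = xor (par A l) (par A m) := by
  induction l with
  | nil => simp [par]
  | cons a l ih => simp [par, ih]

/-- The oracle reduction `A ≤_T B` between sets. -/
def TLe (A B : ℕ → Bool) : Prop := Nat.RecursiveIn {chi B} (chi A)

theorem exists_cyl {U : Set (ℕ → Bool)} (hU : IsOpen U) {A : ℕ → Bool} (hA : A ∈ U) :
    ∃ K, ∀ B : ℕ → Bool, (∀ i < K, B i = A i) → B ∈ U := by
  obtain ⟨I, u, hu, hsub⟩ := isOpen_pi_iff.1 hU A hA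
  refine ⟨I.sup id + 1, fun B hB => hsub ?_⟩
  intro i hi
  have hle : i ≤ I.sup id := Finset.le_sup (f := id) hi
  rw [hB i (by omega)]
  exact (hu i hi).2

section Additive

variable {L : (ℕ → Bool) → (ℕ → Bool)}

theorem add_zero_eq (hadd : ∀ A B, L (xorF A B) = xorF (L A) (L B)) : L zeroF = zeroF := by
  have h := hadd zeroF zeroF
  have h0 : xorF zeroF zeroF = zeroF := by funext n; simp [xorF, zeroF]
  rw [h0] at h
  funext n
  have h2 : L zeroF n = xor (L zeroF n) (L zeroF n) := congrFun h n
  rw [Bool.xor_self] at h2
  exact h2

theorem exists_support (hcont : Continuous L) (hadd : ∀ A B, L (xorF A B) = xorF (L A) (L B))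
    (n : ℕ) : ∃ K, ∀ A : ℕ → Bool, (∀ i < K, A i = false) → L A n = false := by
  have hopen : IsOpen {A : ℕ → Bool | L A n = false} :=
    (isOpen_discrete ({false} : Set Bool)).preimage ((continuous_apply n).comp hcont)
  have hz : zeroF ∈ {A : ℕ → Bool | L A n = false} := by
    simp [add_zero_eq hadd, zeroF]
  obtain ⟨K, hK⟩ := exists_cyl hopen hz
  exact ⟨K, fun A hA => hK A (fun i hi => by simpa [zeroF] using hA i hi)⟩

/-- Two sets that agree below a support bound have the same value. -/
theorem eq_of_support (hadd : ∀ A B, L (xorF A B) = xorF (L A) (L B)) {n K : ℕ}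
    (hK : ∀ A : ℕ → Bool, (∀ i < K, A i = false) → L A n = false) {A B : ℕ → Bool}
    (hAB : ∀ i < K, A i = B i) : L A n = L B n := by
  have h := hK (xorF A B) (fun i hi => by simp [xorF, hAB i hi])
  rw [hadd] at h
  simp only [xorF] at h
  cases hx : L A n <;> cases hy : L B n <;> simp_all

/-- Truncation below `K`. -/
def trunc (A : ℕ → Bool) (K : ℕ) : ℕ → Bool := fun i => decide (i < K) && A i

theorem row_trunc (hadd : ∀ A B, L (xorF A B) = xorF (L A) (L B)) (A : ℕ → Bool) (n : ℕ) (K : ℕ) :
    L (trunc A K) n = par A ((List.range K).filter (fun i => L (unit i) n)) := by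
  induction K with
  | zero =>
      have : trunc A 0 = zeroF := by funext i; simp [trunc, zeroF]
      rw [this, add_zero_eq hadd]
      simp [zeroF, par]
  | succ K ih =>
      rw [List.range_succ, List.filter_append, par_append, ← ih]
      cases hAK : A K with
      | false =>
          have : trunc A (K + 1) = trunc A K := by
            funext i
            simp only [trunc]
            by_cases hi : i = K
            · subst hi; simp [hAK]
            · have : i < K + 1 ↔ i < K := by omega
              simp [this]
          rw [this]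
          cases hb : L (unit K) n <;> simp [hb, par, hAK]
      | true =>
          have : trunc A (K + 1) = xorF (trunc A K) (unit K) := by
            funext i
            simp only [trunc, xorF, unit]
            by_cases hi : i = K
            · subst hi; simp [hAK]
            · have : i < K + 1 ↔ i < K := by omega
              simp [this, hi]
          rw [this, hadd]
          simp only [xorF]
          cases hb : L (unit K) n <;> simp [hb, par, hAK]

theorem row_eq (hadd : ∀ A B, L (xorF A B) = xorF (L A) (L B)) {n K : ℕ}
    (hK : ∀ A : ℕ → Bool, (∀ i < K, A i = false) → L A n = false) (A : ℕ → Bool) :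
    L A n = par A ((List.range K).filter (fun i => L (unit i) n)) := by
  rw [← row_trunc hadd]
  apply eq_of_support hadd hK
  intro i hi
  simp [trunc, hi]

end Additive

/-! ### Extension of a finite string by zeros. -/

/-- The set whose initial segment is `τ`, then empty. -/
def extF (τ : List Bool) : ℕ → Bool := fun i => τ.getD i false

/-- `A` extends the string `τ`. -/
def InCyl (τ : List Bool) (A : ℕ → Bool) : Prop := ∀ i (h : i < τ.length), A i = τ[i]

theorem extF_inCyl (τ : List Bool) : InCyl τ (extF τ) := by
  intro i h
  simp [extF, h]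

theorem look_ext_chi {τ : List Bool} {A : ℕ → Bool} (h : InCyl τ A) : Ext (look τ) (chi A) := by
  intro n v hv
  simp only [look, Part.mem_coe] at hv
  simp only [chi, Part.mem_some_iff]
  rcases lt_or_ge n τ.length with h' | h'
  · simp [h'] at hv
    rw [h n h']
    exact hv.symm
  · simp [h'] at hv

theorem look_ext_append (τ μ : List Bool) : Ext (look τ) (look (τ ++ μ)) := by
  intro n v hv
  simp only [look, Part.mem_coe] at hv ⊢
  rcases lt_or_ge n τ.length with h' | h'
  · simp [h'] at hv
    simp [List.getElem?_append_left h', h']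
    exact hv
  · simp [h'] at hv

theorem pre_eq_append {A : ℕ → Bool} {ρ : List Bool} (h : InCyl ρ A) {N : ℕ} (hN : ρ.length ≤ N) :
    ∃ μ, pre A N = ρ ++ μ := by
  refine ⟨(pre A N).drop ρ.length, ?_⟩
  conv_lhs => rw [← List.take_append_drop ρ.length (pre A N)]
  congr 1
  apply List.ext_getElem
  · simp [pre, hN]
  · intro i h1 h2
    have hi : i < ρ.length := h2
    simp [pre, h i hi]

theorem inCyl_append_left {τ μ : List Bool} {A : ℕ → Bool} (h : InCyl (τ ++ μ) A) : InCyl τ A := by
  intro i hi
  have hi' : i < (τ ++ μ).length := by simp; omega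
  rw [h i hi']
  simp [List.getElem_append_left hi]

/-! ### Searching -/

theorem partrec_approx {α σ : Type} [Primcodable α] [Primcodable σ] {F : α →. σ} (hF : Partrec F) :
    ∃ G : α → ℕ → Option σ, Computable₂ G ∧ ∀ a v, v ∈ F a ↔ ∃ k, G a k = Option.some v := by
  obtain ⟨c, hc⟩ := Nat.Partrec.Code.exists_code.1 hF
  refine ⟨fun a k => (Nat.Partrec.Code.evaln k c (encode a)).bind (fun m => decode (α := σ) m), ?_, ?_⟩
  · have h1 : Computable (fun p : α × ℕ => Nat.Partrec.Code.evaln p.2 c (encode p.1)) := by
      have := Nat.Partrec.Code.primrec_evaln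
      exact (this.to_comp).comp
        (Computable.pair (Computable.pair Computable.snd (Computable.const c))
          (Computable.encode.comp Computable.fst))
    exact Computable.option_bind h1 ((Computable.decode.comp Computable.snd).to₂)
  · intro a v
    have hval : ∀ x, x ∈ Nat.Partrec.Code.eval c (encode a) ↔ ∃ w ∈ F a, encode w = x := by
      intro x
      rw [hc]
      simp [Encodable.encodek, Part.mem_map_iff]
    constructor
    · intro hv
      have : encode v ∈ Nat.Partrec.Code.eval c (encode a) := (hval _).2 ⟨v, hv, rfl⟩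
      obtain ⟨k, hk⟩ := Nat.Partrec.Code.evaln_complete.1 this
      refine ⟨k, ?_⟩
      rw [Option.mem_def] at hk
      simp [hk, Encodable.encodek]
    · rintro ⟨k, hk⟩
      rw [Option.bind_eq_some_iff] at hk
      obtain ⟨m, hm, hdec⟩ := hk
      have hs := Nat.Partrec.Code.evaln_sound (Option.mem_def.2 hm)
      obtain ⟨w, hw, rfl⟩ := (hval _).1 hs
      rw [Encodable.encodek] at hdec
      simpa using (Option.some.inj hdec) ▸ hw

/-- A search for a witness of a recursively enumerable relation. -/
theorem exists_search {α β σ : Type} [Primcodable α] [Primcodable β] [Primcodable σ]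
    {P : α → β →. σ} (hP : Partrec₂ P) :
    ∃ s : α →. (β × σ), Partrec s ∧ (∀ a x, x ∈ s a → x.2 ∈ P a x.1) ∧
      (∀ a b v, v ∈ P a b → (s a).Dom) := by
  obtain ⟨G, hG, hGs⟩ := partrec_approx hP
  let f : α → ℕ → Option (β × σ) := fun a m =>
    (decode (α := β) (Nat.unpair m).1).bind (fun b =>
      (G (a, b) (Nat.unpair m).2).map (fun v => (b, v)))
  have hf : Computable₂ f := by
    refine Computable.option_bind
      (Computable.decode.comp (Computable.fst.comp (Computable.unpair.comp Computable.snd))) ?_
    refine Computable.option_map ?_ ?_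
    · exact hG.comp (Computable.pair (Computable.fst.comp Computable.fst) Computable.snd)
        (Computable.snd.comp (Computable.unpair.comp (Computable.snd.comp Computable.fst)))
    · exact (Computable.pair (Computable.snd.comp Computable.fst) Computable.snd).to₂
  refine ⟨fun a => Nat.rfindOpt (f a), Partrec.rfindOpt hf, ?_, ?_⟩
  · intro a x hx
    obtain ⟨m, hm⟩ := Nat.rfindOpt_spec hx
    simp only [f, Option.mem_def, Option.bind_eq_some_iff, Option.map_eq_some_iff] at hm
    obtain ⟨b, _, v, hv, rfl⟩ := hm
    exact (hGs _ _).2 ⟨_, hv⟩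
  · intro a b v hv
    obtain ⟨k, hk⟩ := (hGs (a, b) v).1 hv
    refine Nat.rfindOpt_dom.2 ⟨Nat.pair (encode b) k, (b, v), ?_⟩
    simp [f, Encodable.encodek, hk]

end Vale.Agent.P327
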